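import Vale.Agent.P254.S.Iface

/-!
P254, block S, part S-PUSH (helper979): the gradient of a `C^{2,1}` Brenier potential is a bijection of
`E n` with Jacobian determinant `det D²φ`, so it pushes the Gaussian onto `e^{-V}`: `StmtPush`.
-/

set_option linter.all false

open MeasureTheory Set Filter Topology
open scoped RealInnerProductSpace

namespace Vale.Agent.P254.S.H979

open Vale.Agent.P227.M Vale.Agent.P254.S

variable {n : ℕ}

/-! ### the gradient and its derivative -/

theorem inner_gradient {φ : E n → ℝ} (z v : E n) : ⟪gradient φ z, v⟫ = fderiv ℝ φ z v := by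
  unfold gradient
  exact InnerProductSpace.toDual_symm_apply

theorem gradient_coord {φ : E n → ℝ} (z : E n) (i : Fin n) : gradient φ z i = pd i φ z := by
  have h := inner_gradient (φ := φ) z (ei i)
  have h2 : ⟪gradient φ z, (ei i : E n)⟫ = gradient φ z i := by
    rw [ei, EuclideanSpace.inner_single_right]
    simp
  rw [← h2, h]
  rfl

/-- the Hessian as a continuous linear map -/
noncomputable def Hc (φ : E n → ℝ) (z : E n) : E n →L[ℝ] E n :=
  LinearMap.toContinuousLinearMap (Matrix.toEuclideanLin (hess φ z))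

theorem Hc_apply (φ : E n → ℝ) (z v : E n) (i : Fin n) :
    Hc φ z v i = ∑ j, hess φ z i j * v j := by
  unfold Hc
  simp [Matrix.toEuclideanLin_apply, Matrix.mulVec, dotProduct]

theorem Hc_det (φ : E n → ℝ) (z : E n) : (Hc φ z).det = (hess φ z).det := by
  unfold Hc ContinuousLinearMap.det
  rw [LinearMap.coe_toContinuousLinearMap, Matrix.toEuclideanLin_eq_toLin, LinearMap.det_toLin]

theorem inner_Hc (φ : E n → ℝ) (z v : E n) : ⟪Hc φ z v, v⟫ = qf (hess φ z) v := by
  rw [PiLp.inner_apply]
  unfold qf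
  refine Finset.sum_congr rfl fun i _ => ?_
  rw [Hc_apply]
  simp only [RCLike.inner_apply, conj_trivial, Finset.mul_sum]
  refine Finset.sum_congr rfl fun j _ => ?_
  ring

theorem hasFDerivAt_gradient {φ : E n → ℝ} (hφ : ContDiff ℝ 2 φ) (z : E n) :
    HasFDerivAt (gradient φ) (Hc φ z) z := by
  rw [← hasFDerivWithinAt_univ, hasFDerivWithinAt_piLp 2]
  intro i
  rw [hasFDerivWithinAt_univ]
  have h1 : (fun x => gradient φ x i) = pd i φ := funext fun x => gradient_coord x i
  have h2 : HasFDerivAt (pd i φ) (fderiv ℝ (pd i φ) z) z :=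
    ((contDiff_pd hφ (k := 1) (by norm_num) i).differentiable (by norm_num) z).hasFDerivAt
  rw [h1]
  refine h2.congr_fderiv ?_
  ext v
  rw [fderiv_eq_sum]
  rw [ContinuousLinearMap.comp_apply]
  have h3 : (EuclideanSpace.proj i : E n →L[ℝ] ℝ) (Hc φ z v) = Hc φ z v i := rfl
  rw [h3, Hc_apply]
  refine Finset.sum_congr rfl fun j _ => ?_
  rw [hess_symm hφ z i j, mul_comm]
  rfl

theorem continuous_Hc {φ : E n → ℝ} (hφ : ContDiff ℝ 2 φ) : Continuous (Hc φ) := by
  unfold Hc
  have h1 : Continuous fun z => hess φ z := continuous_matrix fun i j => continuous_hess hφ i j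
  have h2 : Continuous fun A : Matrix (Fin n) (Fin n) ℝ =>
      (LinearMap.toContinuousLinearMap (Matrix.toEuclideanLin A) : E n →L[ℝ] E n) := by
    exact LinearMap.continuous_of_finiteDimensional
      ((LinearMap.toContinuousLinearMap : (E n →ₗ[ℝ] E n) ≃ₗ[ℝ] (E n →L[ℝ] E n)).toLinearMap.comp
        (Matrix.toEuclideanLin : Matrix (Fin n) (Fin n) ℝ ≃ₗ[ℝ] (E n →ₗ[ℝ] E n)).toLinearMap)
  exact h2.comp h1

/-! ### bijectivity -/

theorem mono {G : E n → E n} {G' : E n → E n →L[ℝ] E n} (hG : ∀ y, HasFDerivAt G (G' y) y)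
    {a : ℝ} (hco : ∀ y v : E n, a * ‖v‖ ^ 2 ≤ ⟪G' y v, v⟫) (x y : E n) :
    a * ‖x - y‖ ^ 2 ≤ ⟪G x - G y, x - y⟫ := by
  have hder : ∀ t : ℝ, HasDerivAt (fun t : ℝ => ⟪G (y + t • (x - y)), x - y⟫)
      ⟪G' (y + t • (x - y)) (x - y), x - y⟫ t := by
    intro t
    have h1 : HasDerivAt (fun t : ℝ => y + t • (x - y)) (x - y) t := by
      have := ((hasDerivAt_id t).smul_const (x - y)).const_add y
      simpa using this
    have h2 : HasDerivAt (fun t : ℝ => G (y + t • (x - y))) (G' (y + t • (x - y)) (x - y)) t :=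
      (hG _).comp_hasDerivAt t h1
    have h3 := h2.inner ℝ (hasDerivAt_const t (x - y))
    simpa using h3
  obtain ⟨c, -, hc⟩ := exists_hasDerivAt_eq_slope
    (fun t : ℝ => ⟪G (y + t • (x - y)), x - y⟫)
    (fun t : ℝ => ⟪G' (y + t • (x - y)) (x - y), x - y⟫) zero_lt_one
    (fun t _ => (hder t).continuousAt.continuousWithinAt) (fun t _ => hder t)
  have h4 := hco (y + c • (x - y)) (x - y)
  rw [hc] at h4
  simpa [inner_sub_left] using h4

theorem expand {G : E n → E n} {G' : E n → E n →L[ℝ] E n} (hG : ∀ y, HasFDerivAt G (G' y) y)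
    {a : ℝ} (hco : ∀ y v : E n, a * ‖v‖ ^ 2 ≤ ⟪G' y v, v⟫) (x y : E n) :
    a * ‖x - y‖ ≤ ‖G x - G y‖ := by
  rcases eq_or_ne x y with rfl | hne
  · simp
  · have hpos : 0 < ‖x - y‖ := norm_pos_iff.2 (sub_ne_zero.2 hne)
    have h1 := mono hG hco x y
    have h2 := real_inner_le_norm (G x - G y) (x - y)
    have h3 : (a * ‖x - y‖) * ‖x - y‖ ≤ ‖G x - G y‖ * ‖x - y‖ := by nlinarith
    exact le_of_mul_le_mul_right h3 hpos

theorem injective {G : E n → E n} {G' : E n → E n →L[ℝ] E n} (hG : ∀ y, HasFDerivAt G (G' y) y)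
    {a : ℝ} (ha : 0 < a) (hco : ∀ y v : E n, a * ‖v‖ ^ 2 ≤ ⟪G' y v, v⟫) :
    Function.Injective G := by
  intro x y h
  have h1 := expand hG hco x y
  rw [h, sub_self, norm_zero] at h1
  have h2 : ‖x - y‖ ≤ 0 := by
    by_contra hcon
    push Not at hcon
    have := mul_pos ha hcon
    linarith
  exact sub_eq_zero.1 (norm_le_zero_iff.1 h2)

theorem surjective {G : E n → E n} {G' : E n → E n →L[ℝ] E n} (hG : ∀ y, HasFDerivAt G (G' y) y)
    (hG' : Continuous G') {a : ℝ} (ha : 0 < a)
    (hco : ∀ y v : E n, a * ‖v‖ ^ 2 ≤ ⟪G' y v, v⟫) :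
    Function.Surjective G ∧ IsOpenMap G := by
  have hcont : Continuous G := continuous_iff_continuousAt.2 fun y => (hG y).continuousAt
  have hopen : IsOpenMap G := by
    refine isOpenMap_iff_nhds_le.2 fun y => ?_
    have hs : HasStrictFDerivAt G (G' y) y :=
      hasStrictFDerivAt_of_hasFDerivAt_of_continuousAt (Eventually.of_forall hG)
        hG'.continuousAt
    have hinj : Function.Injective (G' y : E n →ₗ[ℝ] E n) := by
      refine (injective_iff_map_eq_zero _).2 fun v hv => ?_
      have h1 := hco y v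
      have h2 : G' y v = 0 := hv
      rw [h2, inner_zero_left] at h1
      have h3 : ‖v‖ ^ 2 ≤ 0 := by
        by_contra hcon
        push Not at hcon
        have := mul_pos ha hcon
        linarith
      have h4 : ‖v‖ = 0 := by
        have : ‖v‖ ^ 2 = 0 := le_antisymm h3 (by positivity)
        simpa using this
      exact norm_eq_zero.1 h4
    have hsur : Function.Surjective (G' y : E n →ₗ[ℝ] E n) :=
      LinearMap.injective_iff_surjective.1 hinj
    exact (hs.map_nhds_eq_of_surj (LinearMap.range_eq_top.2 hsur)).ge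
  refine ⟨?_, hopen⟩
  have hclosed : IsClosed (range G) := by
    refine IsSeqClosed.isClosed ?_
    intro z z₀ hz hlim
    choose y hy using hz
    have hcz : CauchySeq z := hlim.cauchySeq
    have hcy : CauchySeq y := by
      rw [Metric.cauchySeq_iff] at hcz ⊢
      intro ε hε
      obtain ⟨N, hN⟩ := hcz (a * ε) (mul_pos ha hε)
      refine ⟨N, fun m hm k hk => ?_⟩
      have h1 := hN m hm k hk
      have h2 := expand hG hco (y m) (y k)
      rw [hy, hy] at h2
      rw [dist_eq_norm] at h1 ⊢
      exact lt_of_mul_lt_mul_left (lt_of_le_of_lt h2 h1) ha.le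
    obtain ⟨y₀, hy₀⟩ := cauchySeq_tendsto_of_complete hcy
    refine ⟨y₀, ?_⟩
    have h3 : Tendsto (fun n => G (y n)) atTop (𝓝 (G y₀)) := (hcont.tendsto y₀).comp hy₀
    have h4 : (fun n => G (y n)) = z := funext hy
    rw [h4] at h3
    exact tendsto_nhds_unique h3 hlim
  have hclopen : IsClopen (range G) := ⟨hclosed, hopen.isOpen_range⟩
  have huniv : range G = univ := hclopen.eq_univ (range_nonempty G)
  exact range_eq_univ.1 huniv

/-! ### change of variables -/

variable {φ V : E n → ℝ} {a b M κ : ℝ}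

theorem BP.coer (h : BP φ V a b M κ) (z v : E n) : a * ‖v‖ ^ 2 ≤ ⟪Hc φ z v, v⟫ := by
  rw [inner_Hc]
  exact h.lower z v

theorem BP.injective (h : BP φ V a b M κ) : Function.Injective (gradient φ) :=
  H979.injective (hasFDerivAt_gradient h.C2) h.a_pos (BP.coer h)

theorem BP.surjective (h : BP φ V a b M κ) : Function.Surjective (gradient φ) :=
  (H979.surjective (hasFDerivAt_gradient h.C2) (continuous_Hc h.C2) h.a_pos (BP.coer h)).1

theorem BP.range (h : BP φ V a b M κ) : gradient φ '' univ = univ := by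
  rw [image_univ, (BP.surjective h).range_eq]

theorem BP.hess_herm (h : BP φ V a b M κ) (z : E n) : (hess φ z).IsHermitian := by
  ext i j
  rw [Matrix.conjTranspose_apply, star_trivial]
  exact hess_symm h.C2 z j i

theorem BP.posDef (h : BP φ V a b M κ) (z : E n) : (hess φ z).PosDef := by
  refine Matrix.PosDef.of_dotProduct_mulVec_pos (BP.hess_herm h z) fun v hv => ?_
  have h1 := h.lower z (WithLp.toLp 2 v)
  have h2 : 0 < ‖(WithLp.toLp 2 v : E n)‖ := by
    rw [norm_pos_iff]
    intro h0
    apply hv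
    have := congrArg WithLp.ofLp h0
    simpa using this
  have h3 : 0 < a * ‖(WithLp.toLp 2 v : E n)‖ ^ 2 := mul_pos h.a_pos (pow_pos h2 2)
  have h4 : qf (hess φ z) (WithLp.toLp 2 v) = star v ⬝ᵥ (hess φ z).mulVec v := by
    unfold qf
    simp only [Matrix.mulVec, dotProduct, star_trivial, Finset.mul_sum]
    refine Finset.sum_congr rfl fun i _ => Finset.sum_congr rfl fun j _ => ?_
    ring
  rw [← h4]
  exact h3.trans_le h1

theorem BP.det_pos (h : BP φ V a b M κ) (z : E n) : 0 < (hess φ z).det := (BP.posDef h z).det_pos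

/-- the Jacobian times the image density is `e^{-κ}` times the Gaussian density -/
theorem BP.jac (h : BP φ V a b M κ) (z : E n) :
    |(Hc φ z).det| * Real.exp (-V (gradient φ z)) = Real.exp (-κ) * Real.exp (-Q z) := by
  rw [Hc_det, abs_of_pos (BP.det_pos h z), h.ma z]
  have h1 := Real.exp_log (BP.det_pos h z)
  have h2 : -(‖z‖ ^ 2 / 2 + Real.log (hess φ z).det + κ)
      = -κ + -Q z - Real.log (hess φ z).det := by
    unfold Q
    ring
  rw [h2, Real.exp_sub, h1, Real.exp_add]
  field_simp [(BP.det_pos h z).ne']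

theorem BP.integral (h : BP φ V a b M κ) (f : E n → ℝ) :
    ∫ x, f x * Real.exp (-V x) = Real.exp (-κ) * ∫ z, f (gradient φ z) * Real.exp (-Q z) := by
  have h1 := integral_image_eq_integral_abs_det_fderiv_smul (volume : Measure (E n))
    (MeasurableSet.univ (α := E n))
    (fun y _ => (hasFDerivAt_gradient h.C2 y).hasFDerivWithinAt)
    ((BP.injective h).injOn (s := univ)) (fun x => f x * Real.exp (-V x))
  rw [BP.range h, Measure.restrict_univ] at h1
  rw [h1, ← integral_const_mul]
  refine integral_congr_ae (Eventually.of_forall fun z => ?_)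
  have h2 := BP.jac h z
  simp only [smul_eq_mul]
  calc |(Hc φ z).det| * (f (gradient φ z) * Real.exp (-V (gradient φ z)))
      = f (gradient φ z) * (|(Hc φ z).det| * Real.exp (-V (gradient φ z))) := by ring
    _ = Real.exp (-κ) * (f (gradient φ z) * Real.exp (-Q z)) := by rw [h2]; ring

theorem BP.integrable_iff (h : BP φ V a b M κ) (f : E n → ℝ) :
    Integrable (fun x => f x * Real.exp (-V x)) ↔
      Integrable (fun z => f (gradient φ z) * Real.exp (-Q z)) := by
  have h1 := integrableOn_image_iff_integrableOn_abs_det_fderiv_smul (volume : Measure (E n))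
    (MeasurableSet.univ (α := E n))
    (fun y _ => (hasFDerivAt_gradient h.C2 y).hasFDerivWithinAt)
    ((BP.injective h).injOn (s := univ)) (fun x => f x * Real.exp (-V x))
  rw [BP.range h, integrableOn_univ, integrableOn_univ] at h1
  rw [h1]
  have h3 : (fun z => |(Hc φ z).det| • (f (gradient φ z) * Real.exp (-V (gradient φ z))))
      = fun z => Real.exp (-κ) * (f (gradient φ z) * Real.exp (-Q z)) := by
    funext z
    have h2 := BP.jac h z
    simp only [smul_eq_mul]
    calc |(Hc φ z).det| * (f (gradient φ z) * Real.exp (-V (gradient φ z)))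
        = f (gradient φ z) * (|(Hc φ z).det| * Real.exp (-V (gradient φ z))) := by ring
      _ = Real.exp (-κ) * (f (gradient φ z) * Real.exp (-Q z)) := by rw [h2]; ring
  rw [h3]
  exact integrable_const_mul_iff (isUnit_iff_ne_zero.2 (Real.exp_pos _).ne') _

/-- **S-PUSH** -/
theorem stmtPush : StmtPush := by
  intro n φ V a b M κ h
  have h0 : (∫ x, Real.exp (-V x)) = Real.exp (-κ) * ∫ z, Real.exp (-Q (n := n) z) := by
    have h1 := BP.integral h (fun _ => (1 : ℝ))
    simpa using h1
  refine ⟨fun f => ?_, fun f => BP.integrable_iff h f, h0⟩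
  unfold Ex
  rw [h0, BP.integral h f, mul_div_mul_left _ _ (Real.exp_pos _).ne']

end Vale.Agent.P254.S.H979
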